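import Vale.Agent.Lib.P045.T42.D0
import Vale.Agent.Lib.P045.T42.D1

/-! All parts of the certificate. -/

namespace Vale.Agent.Lib.P045.T42

/-- All families of the certificate pass their checks. -/
theorem upAll : UpTo 4 2 6 tbl 0 117 := by
  have h := up0
  have h := UpTo.trans h up1
  exact h

end Vale.Agent.Lib.P045.T42
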